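import Vale.Agent.P146.R3.JDefs
import Vale.Agent.P166.Defs

/-!
# P146: common definitions for the exact chaos function
-/

open MeasureTheory

namespace Vale.Agent.P146.R3

/-- The Chebyshev polynomials of the second kind on `[-2, 2]`:
`U_0 = 1`, `U_1 = x`, `U_{k+2} = x U_{k+1} - U_k`. -/
noncomputable def chR : ℕ → ℝ → ℝ
  | 0, _ => 1
  | 1, x => x
  | k + 2, x => x * chR (k + 1) x - chR k x

@[simp] lemma chR_zero (x : ℝ) : chR 0 x = 1 := by rw [chR]
@[simp] lemma chR_one (x : ℝ) : chR 1 x = x := by rw [chR]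
lemma chR_succ_succ (k : ℕ) (x : ℝ) : chR (k + 2) x = x * chR (k + 1) x - chR k x := by
  rw [chR]

/-- The semicircle law on `[-2, 2]`: the law of `2 cos θ`, `θ` with density `(2/π) sin² θ` on
`[0, π]`. -/
noncomputable def sc : Measure ℝ :=
  ((volume.restrict (Set.Icc 0 Real.pi)).withDensity fun θ =>
    ENNReal.ofReal (2 / Real.pi * Real.sin θ ^ 2)).map fun θ => 2 * Real.cos θ

/-- `β x + 2 s U_k(x)` -/
noncomputable def hs (β : ℝ) (k : ℕ) (s x : ℝ) : ℝ := β * x + 2 * s * chR k x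

/-- the law of `β x + 2 s U_k(x)` for `x` distributed according to the semicircle law -/
noncomputable def muS (β : ℝ) (k : ℕ) (s : ℝ) : Measure ℝ := sc.map (hs β k s)

/-- the set of the values of the variational problem of P166 -/
def PV (b : ℝ) (μ : Measure ℝ) : Set ℝ :=
  {y : ℝ | ∃ (k : ℕ) (m q : ℕ → ℝ), P157.Par.Exponents k m ∧ P157.Par.Path k q ∧ q 0 = 0 ∧
    q k < 1 ∧ IsLUB {x : ℝ | ∃ r : ℕ → ℝ, P157.Par.Path k r ∧ x = P166.Jf b μ k m q r} y}

end Vale.Agent.P146.R3
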