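import Vale.Agent.P146.R3.H952.Env

/-!
# P146: the limiting quantities
-/

open MeasureTheory

namespace Vale.Agent.P146.R3

/-- `m_k = (k + 1) ∫₀¹ ℓ(y)^k dy`, `ℓ(y) = min(β ∫_y^1 x(u) du, 1)`. -/
noncomputable def mk (β : ℝ) (x : ℝ → ℝ) (k : ℕ) : ℝ :=
  (k + 1) * ∫ y in (0 : ℝ)..1, H952.ll β x y ^ k

/-- `K_∞(t) = (β²/2) ∑_{k ≥ 1} t^(k+1) m_k² / (k + 1)`. -/
noncomputable def Kinf (β : ℝ) (x : ℝ → ℝ) (t : ℝ) : ℝ :=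
  β ^ 2 / 2 * ∑' k : ℕ, t ^ (k + 2) / (k + 2) * mk β x (k + 1) ^ 2

end Vale.Agent.P146.R3
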