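import Mathlib
import Vale.Agent.P157.ParDefs

/-!
# P146: the Parisi functional, its order parameter and the limiting quantities
-/

open MeasureTheory

namespace Vale.Agent.P146.R3

open Vale.Agent.P157.Par

/-- The Parisi functional of the Sherrington-Kirkpatrick model at the discrete order parameter with
the atoms `q l` of mass `m (l + 1) - m l`, `l ≤ K` (`log 2` is left out):
`(β²/4) (1 + ∑ (m_{l+1} - m_l) q_l²)` plus the cascade of `log cosh` along `β² q` minus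
`β² q_K / 2`. -/
noncomputable def parisiSK (β : ℝ) (K : ℕ) (m q : ℕ → ℝ) : ℝ :=
  β ^ 2 / 4 * (1 + ∑ l ∈ Finset.range (K + 1), (m (l + 1) - m l) * q l ^ 2) +
    spinPart K m fun l => β ^ 2 * q l

/-- The discrete order parameters: the masses `m (l + 1) - m l > 0`, `0 = m 0 < ⋯ < m (K + 1) = 1`,
at the points `0 ≤ q 0 ≤ ⋯ ≤ q K ≤ 1`. -/
def OrdPar (K : ℕ) (m q : ℕ → ℝ) : Prop := Exponents K m ∧ Path K q ∧ q K ≤ 1

/-- The distribution function of a discrete order parameter. -/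
noncomputable def dfn (K : ℕ) (m q : ℕ → ℝ) (u : ℝ) : ℝ :=
  ∑ l ∈ Finset.range (K + 1), (m (l + 1) - m l) * if q l < u then 1 else 0

/-- `m_k = (k + 1) ∫₀¹ (β ∫_y^1 x(u) du)^k dy`. -/
noncomputable def mom (β : ℝ) (x : ℝ → ℝ) (k : ℕ) : ℝ :=
  (k + 1) * ∫ y in (0 : ℝ)..1, (β * ∫ u in y..1, x u) ^ k

/-- `K_∞(t) = (β²/2) ∑_{k ≥ 1} t^(k+1) m_k² / (k + 1)`. -/
noncomputable def covLim (β : ℝ) (x : ℝ → ℝ) (t : ℝ) : ℝ :=
  β ^ 2 / 2 * ∑' k : ℕ, t ^ (k + 2) / (k + 2) * mom β x (k + 1) ^ 2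

end Vale.Agent.P146.R3
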